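import Vale.Agent.H29.P065.Deg

/-!
# Double counting of halving lines, and halving lines through an extreme point
-/

namespace Vale.Agent.H29.P065

open Classical in
/-- Twice the number of halving lines is at most the sum over the points `p` of the number of
halving lines through `p`. -/
theorem two_mul_halvingCount_le (P : Finset (ℝ × ℝ)) :
    2 * halvingCount P ≤ ∑ p ∈ P, (P.filter (fun q => IsHalvingPair P p q)).card := by
  obtain ⟨O, hO⟩ : ∃ O : Finset ((ℝ × ℝ) × (ℝ × ℝ)),
      O = (P ×ˢ P).filter (fun x => IsHalvingPair P x.1 x.2) := ⟨_, rfl⟩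
  obtain ⟨f, hf⟩ : ∃ f : (ℝ × ℝ) × (ℝ × ℝ) → Finset (ℝ × ℝ), ∀ x, f x = {x.1, x.2} :=
    ⟨fun x => {x.1, x.2}, fun _ => rfl⟩
  have hOmem : ∀ x, x ∈ O ↔ IsHalvingPair P x.1 x.2 := by
    intro x
    rw [hO, Finset.mem_filter, Finset.mem_product]
    exact ⟨fun h => h.2, fun h => ⟨⟨h.1, h.2.1⟩, h⟩⟩
  have hS : {s : Finset (ℝ × ℝ) | ∃ p q, s = {p, q} ∧ IsHalvingPair P p q} = ↑(O.image f) := by
    ext s
    simp only [Set.mem_ofPred_eq, Finset.coe_image, Set.mem_image, Finset.mem_coe]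
    constructor
    · rintro ⟨p, q, rfl, h⟩
      exact ⟨(p, q), (hOmem (p, q)).mpr h, hf (p, q)⟩
    · rintro ⟨x, hx, rfl⟩
      exact ⟨x.1, x.2, hf x, (hOmem x).mp hx⟩
  have h1 : halvingCount P = (O.image f).card := by
    unfold halvingCount
    rw [hS, Set.ncard_coe_finset]
  have h2 : 2 * (O.image f).card ≤ O.card := by
    rw [Finset.card_eq_sum_card_image f O, mul_comm, ← smul_eq_mul]
    apply Finset.card_nsmul_le_sum
    intro t ht
    obtain ⟨x, hx, rfl⟩ := Finset.mem_image.mp ht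
    have hx' := (hOmem x).mp hx
    have hy : (x.2, x.1) ∈ O := (hOmem (x.2, x.1)).mpr (isHalvingPair_symm hx')
    have hne : x ≠ (x.2, x.1) := by
      intro h
      have : x.1 = x.2 := congrArg Prod.fst h
      exact hx'.2.2.1 this
    have : 1 < (O.filter (fun y => f y = f x)).card := by
      rw [Finset.one_lt_card]
      refine ⟨x, ?_, (x.2, x.1), ?_, hne⟩
      · simp [hx]
      · rw [Finset.mem_filter]
        refine ⟨hy, ?_⟩
        rw [hf, hf]
        exact Finset.pair_comm _ _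
    omega
  have h3 : O.card ≤ ∑ p ∈ P, (P.filter (fun q => IsHalvingPair P p q)).card := by
    have hmaps : (O : Set ((ℝ × ℝ) × (ℝ × ℝ))).MapsTo Prod.fst P := by
      intro x hx
      exact ((hOmem x).mp hx).1
    rw [Finset.card_eq_sum_card_fiberwise hmaps]
    apply Finset.sum_le_sum
    intro p _
    apply Finset.card_le_card_of_injOn Prod.snd
    · intro x hx
      simp only [Finset.coe_filter, Set.mem_ofPred_eq] at hx
      obtain ⟨hx1, hx2⟩ := hx
      have := (hOmem x).mp hx1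
      rw [hx2] at this
      simp only [Finset.coe_filter, Set.mem_ofPred_eq]
      exact ⟨this.2.1, this⟩
    · intro x hx y hy hxy
      simp only [Finset.coe_filter, Set.mem_ofPred_eq] at hx hy
      exact Prod.ext (hx.2.trans hy.2.symm) hxy
  rw [h1]
  exact le_trans h2 h3

open Classical in
/-- A point of `P` lies on at most `n - 1` halving lines. -/
theorem deg_le_card_sub_one (P : Finset (ℝ × ℝ)) (p : ℝ × ℝ) (hp : p ∈ P) :
    (P.filter (fun q => IsHalvingPair P p q)).card ≤ P.card - 1 := by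
  rw [← Finset.card_erase_of_mem hp]
  apply Finset.card_le_card
  intro q hq
  rw [Finset.mem_filter] at hq
  rw [Finset.mem_erase]
  exact ⟨fun h => hq.2.2.2.1 h.symm, hq.1⟩

open Classical in
/-- An extreme point of `P` lies on at most one halving line. -/
theorem deg_le_one_of_extreme (P : Finset (ℝ × ℝ)) (hP : NoThreeCollinear P) (p : ℝ × ℝ)
    (hp : p ∈ P) (hext : p ∉ convexHull ℝ (↑(P.erase p) : Set (ℝ × ℝ))) :
    (P.filter (fun q => IsHalvingPair P p q)).card ≤ 1 := by
  obtain ⟨f, c, hfp, hfq⟩ := geometric_hahn_banach_point_closed (convex_convexHull ℝ _)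
    ((P.erase p).finite_toSet.isClosed_convexHull ℝ) hext
  have hlin : ∀ v : ℝ × ℝ, f v = f (1, 0) * v.1 + f (0, 1) * v.2 := by
    intro v
    have hv : v = v.1 • ((1 : ℝ), (0 : ℝ)) + v.2 • ((0 : ℝ), (1 : ℝ)) := by
      ext <;> simp
    calc f v = f (v.1 • ((1 : ℝ), (0 : ℝ)) + v.2 • ((0 : ℝ), (1 : ℝ))) := by rw [← hv]
      _ = f (1, 0) * v.1 + f (0, 1) * v.2 := by
        rw [map_add, map_smul, map_smul, smul_eq_mul, smul_eq_mul]; ring
  have hval : ∀ q : ℝ × ℝ, f (1, 0) * (q.1 - p.1) + f (0, 1) * (q.2 - p.2) = f q - f p := by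
    intro q
    rw [hlin q, hlin p]; ring
  have hpos : ∀ q ∈ P, q ≠ p → 0 < f (1, 0) * (q.1 - p.1) + f (0, 1) * (q.2 - p.2) := by
    intro q hq hqp
    rw [hval]
    have h1 : q ∈ convexHull ℝ (↑(P.erase p) : Set (ℝ × ℝ)) :=
      subset_convexHull ℝ _ (by
        rw [Finset.mem_coe, Finset.mem_erase]; exact ⟨hqp, hq⟩)
    have := hfq q h1
    linarith
  have hdeg := deg_le P hP p hp (f (1, 0)) (f (0, 1)) (fun q hq hqp => ne_of_gt (hpos q hq hqp))
  have hempty : (P.filter (fun q => f (1, 0) * (q.1 - p.1) + f (0, 1) * (q.2 - p.2) < 0)) = ∅ := by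
    rw [Finset.filter_eq_empty_iff]
    intro q hq
    by_cases hqp : q = p
    · rw [hqp]; simp
    · exact not_lt.mpr (le_of_lt (hpos q hq hqp))
  rw [hempty] at hdeg
  simpa using hdeg

end Vale.Agent.H29.P065
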