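import Mathlib

/-!
# Halving lines of planar point sets: definitions

Points are elements of `ℝ × ℝ`, a point set is a `Finset (ℝ × ℝ)`.
-/

namespace Vale.Agent.H29.P065

/-- The determinant of two plane vectors; `det2 (q - p) (r - p)` is positive, zero or negative
according to whether `r` lies to the left of, on, or to the right of the directed line from `p`
to `q`. -/
def det2 (u v : ℝ × ℝ) : ℝ := u.1 * v.2 - u.2 * v.1

/-- No three points of `P` are collinear. -/
def NoThreeCollinear (P : Finset (ℝ × ℝ)) : Prop :=
  ∀ p ∈ P, ∀ q ∈ P, ∀ r ∈ P, p ≠ q → p ≠ r → q ≠ r → det2 (q - p) (r - p) ≠ 0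

/-- `p` and `q` are distinct points of `P` and the line through them has exactly `(n - 2) / 2`
points of `P` in each of its two open half-planes, where `n` is the number of points of `P`. -/
def IsHalvingPair (P : Finset (ℝ × ℝ)) (p q : ℝ × ℝ) : Prop :=
  p ∈ P ∧ q ∈ P ∧ p ≠ q ∧
    2 * (P.filter (fun r => 0 < det2 (q - p) (r - p))).card + 2 = P.card ∧
    2 * (P.filter (fun r => det2 (q - p) (r - p) < 0)).card + 2 = P.card

/-- The number of halving lines of `P`: the number of unordered pairs `{p, q}` of points of `P`
that span one. -/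
noncomputable def halvingCount (P : Finset (ℝ × ℝ)) : ℕ :=
  Set.ncard {s : Finset (ℝ × ℝ) | ∃ p q, s = {p, q} ∧ IsHalvingPair P p q}

end Vale.Agent.H29.P065
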