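import Vale.Agent.H29.P065.Defs

/-!
# Halving lines through one point

If a line through `p` misses the other points of `P` and has `m` points of `P` strictly on one
side, then `p` lies on at most `2 m + 1` halving lines.
-/

namespace Vale.Agent.H29.P065

theorem det2_sub (p q r : ℝ × ℝ) :
    det2 (q - p) (r - p) = (q.1 - p.1) * (r.2 - p.2) - (q.2 - p.2) * (r.1 - p.1) := by
  simp [det2]

theorem det2_swap (p q r : ℝ × ℝ) : det2 (p - q) (r - q) = - det2 (q - p) (r - p) := by
  rw [det2_sub, det2_sub]; ring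

theorem isHalvingPair_symm {P : Finset (ℝ × ℝ)} {p q : ℝ × ℝ} (h : IsHalvingPair P p q) :
    IsHalvingPair P q p := by
  obtain ⟨hp, hq, hne, h1, h2⟩ := h
  refine ⟨hq, hp, hne.symm, ?_, ?_⟩
  · have : (P.filter (fun r => 0 < det2 (p - q) (r - q))) =
        (P.filter (fun r => det2 (q - p) (r - p) < 0)) := by
      apply Finset.filter_congr
      intro r _
      rw [det2_swap]
      constructor <;> intro h <;> linarith
    rw [this]; exact h2
  · have : (P.filter (fun r => det2 (p - q) (r - q) < 0)) =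
        (P.filter (fun r => 0 < det2 (q - p) (r - p))) := by
      apply Finset.filter_congr
      intro r _
      rw [det2_swap]
      constructor <;> intro h <;> linarith
    rw [this]; exact h1

theorem sign_pos (Lq Mq Lr Mr : ℝ) (hq : 0 < Lq) (hr : 0 < Lr) :
    0 < Lq * Mr - Mq * Lr ↔ Mq / Lq < Mr / Lr := by
  rw [div_lt_div_iff₀ hq hr]
  constructor <;> intro h <;> nlinarith

theorem sign_neg (Lq Mq Lr Mr : ℝ) (hq : 0 < Lq) (hr : Lr < 0) :
    0 < Lq * Mr - Mq * Lr ↔ Mr / Lr < Mq / Lq := by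
  have h1 : Mr / Lr = (-Mr) / (-Lr) := by rw [neg_div_neg_eq]
  rw [h1, div_lt_div_iff₀ (by linarith) hq]
  constructor <;> intro h <;> nlinarith

open Classical in
/-- The main counting lemma. -/
theorem deg_le (P : Finset (ℝ × ℝ)) (hP : NoThreeCollinear P) (p : ℝ × ℝ) (hp : p ∈ P) (a b : ℝ)
    (hne : ∀ q ∈ P, q ≠ p → a * (q.1 - p.1) + b * (q.2 - p.2) ≠ 0) :
    (P.filter (fun q => IsHalvingPair P p q)).card ≤
      2 * (P.filter (fun q => a * (q.1 - p.1) + b * (q.2 - p.2) < 0)).card + 1 := by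
  obtain ⟨L, hL⟩ : ∃ L : ℝ × ℝ → ℝ, ∀ q, L q = a * (q.1 - p.1) + b * (q.2 - p.2) :=
    ⟨fun q => a * (q.1 - p.1) + b * (q.2 - p.2), fun _ => rfl⟩
  obtain ⟨M, hM⟩ : ∃ M : ℝ × ℝ → ℝ, ∀ q, M q = a * (q.2 - p.2) - b * (q.1 - p.1) :=
    ⟨fun q => a * (q.2 - p.2) - b * (q.1 - p.1), fun _ => rfl⟩
  obtain ⟨s, hs⟩ : ∃ s : ℝ × ℝ → ℝ, ∀ q, s q = M q / L q := ⟨fun q => M q / L q, fun _ => rfl⟩
  have hXeq : (P.filter (fun q => a * (q.1 - p.1) + b * (q.2 - p.2) < 0)) =
      P.filter (fun q => L q < 0) := by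
    apply Finset.filter_congr; intro q _; rw [hL]
  rw [hXeq]
  have hLne : ∀ q ∈ P, q ≠ p → L q ≠ 0 := fun q hq hqp => by rw [hL]; exact hne q hq hqp
  have hid : ∀ q r, (a ^ 2 + b ^ 2) * det2 (q - p) (r - p) = L q * M r - M q * L r := by
    intro q r
    rw [det2_sub, hL, hL, hM, hM]; ring
  have hab : ∀ q, 0 < L q → 0 < a ^ 2 + b ^ 2 := by
    intro q hq
    by_contra hcon
    have ha : a = 0 := by nlinarith [sq_nonneg a, sq_nonneg b]
    have hb : b = 0 := by nlinarith [sq_nonneg a, sq_nonneg b]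
    rw [hL, ha, hb] at hq
    simp at hq
  -- the finsets
  obtain ⟨X, hX⟩ : ∃ X : Finset (ℝ × ℝ), X = P.filter (fun q => L q < 0) := ⟨_, rfl⟩
  obtain ⟨Y, hY⟩ : ∃ Y : Finset (ℝ × ℝ), Y = P.filter (fun q => 0 < L q) := ⟨_, rfl⟩
  obtain ⟨H, hH⟩ : ∃ H : Finset (ℝ × ℝ), H = P.filter (fun q => IsHalvingPair P p q) := ⟨_, rfl⟩
  rw [← hX, ← hH]
  have hHP : ∀ q ∈ H, q ∈ P ∧ q ≠ p ∧ IsHalvingPair P p q := by
    intro q hq
    rw [hH, Finset.mem_filter] at hq
    exact ⟨hq.1, fun h => hq.2.2.2.1 h.symm, hq.2⟩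
  -- description of the positive side for q in Y
  have hside : ∀ q ∈ P, 0 < L q →
      (P.filter (fun r => 0 < det2 (q - p) (r - p))) =
        (Y.filter (fun r => s q < s r)) ∪ (X.filter (fun r => s r < s q)) := by
    intro q _ hq
    have habq := hab q hq
    ext r
    simp only [Finset.mem_filter, Finset.mem_union, hX, hY]
    have hdet : 0 < det2 (q - p) (r - p) ↔ 0 < L q * M r - M q * L r := by
      rw [← hid q r]
      constructor
      · intro h; positivity
      · intro h
        by_contra hcon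
        push Not at hcon
        nlinarith
    constructor
    · rintro ⟨hr, hpos⟩
      rw [hdet] at hpos
      rcases lt_trichotomy (L r) 0 with hlr | hlr | hlr
      · right
        refine ⟨⟨hr, hlr⟩, ?_⟩
        rw [hs, hs]
        exact (sign_neg (L q) (M q) (L r) (M r) hq hlr).mp hpos
      · exfalso
        have hrp : r = p := by
          by_contra hrp
          exact hLne r hr hrp hlr
        rw [hrp] at hpos
        have h1 : L p = 0 := by rw [hL]; ring
        have h2 : M p = 0 := by rw [hM]; ring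
        rw [h1, h2] at hpos
        simp at hpos
      · left
        refine ⟨⟨hr, hlr⟩, ?_⟩
        rw [hs, hs]
        exact (sign_pos (L q) (M q) (L r) (M r) hq hlr).mp hpos
    · rintro (⟨⟨hr, hlr⟩, hlt⟩ | ⟨⟨hr, hlr⟩, hlt⟩)
      · refine ⟨hr, hdet.mpr ?_⟩
        rw [hs, hs] at hlt
        exact (sign_pos (L q) (M q) (L r) (M r) hq hlr).mpr hlt
      · refine ⟨hr, hdet.mpr ?_⟩
        rw [hs, hs] at hlt
        exact (sign_neg (L q) (M q) (L r) (M r) hq hlr).mpr hlt
  have hdisj : ∀ q, Disjoint (Y.filter (fun r => s q < s r)) (X.filter (fun r => s r < s q)) := by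
    intro q
    rw [Finset.disjoint_left]
    intro r h1 h2
    simp only [Finset.mem_filter, hX, hY] at h1 h2
    linarith [h1.1.2, h2.1.2]
  have hcard : ∀ q ∈ P, 0 < L q →
      (P.filter (fun r => 0 < det2 (q - p) (r - p))).card =
        (Y.filter (fun r => s q < s r)).card + (X.filter (fun r => s r < s q)).card := by
    intro q hqP hq
    rw [hside q hqP hq, Finset.card_union_of_disjoint (hdisj q)]
  -- the key strict monotonicity
  have key : ∀ q1 ∈ H, ∀ q2 ∈ H, 0 < L q1 → 0 < L q2 → s q1 < s q2 →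
      (X.filter (fun r => s r < s q1)).card < (X.filter (fun r => s r < s q2)).card := by
    intro q1 hq1 q2 hq2 hl1 hl2 hlt
    obtain ⟨hq1P, _, hh1⟩ := hHP q1 hq1
    obtain ⟨hq2P, _, hh2⟩ := hHP q2 hq2
    have e1 := hcard q1 hq1P hl1
    have e2 := hcard q2 hq2P hl2
    have c1 := hh1.2.2.2.1
    have c2 := hh2.2.2.2.1
    have hA : (Y.filter (fun r => s q2 < s r)).card < (Y.filter (fun r => s q1 < s r)).card := by
      apply Finset.card_lt_card
      rw [Finset.ssubset_iff_of_subset]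
      · refine ⟨q2, ?_, ?_⟩
        · simp only [Finset.mem_filter, hY]
          exact ⟨⟨hq2P, hl2⟩, hlt⟩
        · simp only [Finset.mem_filter, not_and, lt_irrefl, not_false_iff, implies_true]
      · intro r hr
        simp only [Finset.mem_filter] at hr ⊢
        exact ⟨hr.1, lt_trans hlt hr.2⟩
    omega
  -- distinct halving points on the positive side have distinct slopes
  have hsne : ∀ q1 ∈ H, ∀ q2 ∈ H, 0 < L q1 → 0 < L q2 → q1 ≠ q2 → s q1 ≠ s q2 := by
    intro q1 hq1 q2 hq2 hl1 hl2 hne12 heq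
    obtain ⟨hq1P, hq1p, _⟩ := hHP q1 hq1
    obtain ⟨hq2P, hq2p, _⟩ := hHP q2 hq2
    have hdet := hP p hp q1 hq1P q2 hq2P (Ne.symm hq1p) (Ne.symm hq2p) hne12
    apply hdet
    have h1 := hid q1 q2
    rw [hs, hs, div_eq_div_iff (ne_of_gt hl1) (ne_of_gt hl2)] at heq
    have h2 : (a ^ 2 + b ^ 2) * det2 (q1 - p) (q2 - p) = 0 := by rw [h1]; linarith
    rcases mul_eq_zero.mp h2 with h3 | h3
    · exact absurd h3 (ne_of_gt (hab q1 hl1))
    · exact h3
  -- count
  have hsplit : H.card = (H.filter (fun q => L q < 0)).card + (H.filter (fun q => ¬ L q < 0)).card :=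
    (Finset.card_filter_add_card_filter_not (s := H) (fun q => L q < 0)).symm
  have hHX : (H.filter (fun q => L q < 0)).card ≤ X.card := by
    apply Finset.card_le_card
    intro q hq
    simp only [Finset.mem_filter] at hq
    rw [hX, Finset.mem_filter]
    exact ⟨(hHP q hq.1).1, hq.2⟩
  have hHY : (H.filter (fun q => ¬ L q < 0)).card ≤ X.card + 1 := by
    have hmem : ∀ q ∈ H.filter (fun q => ¬ L q < 0), q ∈ H ∧ 0 < L q := by
      intro q hq
      simp only [Finset.mem_filter] at hq
      obtain ⟨hqP, hqp, _⟩ := hHP q hq.1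
      have := hLne q hqP hqp
      exact ⟨hq.1, lt_of_le_of_ne (not_lt.mp hq.2) (Ne.symm this)⟩
    have := Finset.card_le_card_of_injOn (s := H.filter (fun q => ¬ L q < 0))
      (t := Finset.range (X.card + 1)) (fun q => (X.filter (fun r => s r < s q)).card)
      (fun q _ => by
        simp only [Finset.coe_range, Set.mem_Iio]
        exact Nat.lt_succ_of_le (Finset.card_filter_le _ _))
      (fun q1 hq1 q2 hq2 heq => by
        obtain ⟨h1, l1⟩ := hmem q1 hq1
        obtain ⟨h2, l2⟩ := hmem q2 hq2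
        by_contra hne12
        rcases lt_or_gt_of_ne (hsne q1 h1 q2 h2 l1 l2 hne12) with hlt | hlt
        · have := key q1 h1 q2 h2 l1 l2 hlt
          simp only at heq
          omega
        · have := key q2 h2 q1 h1 l2 l1 hlt
          simp only at heq
          omega)
    rwa [Finset.card_range] at this
  omega

end Vale.Agent.H29.P065
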